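/-
helper71 — row 82 (S0109), package (D), leaf D4 (statement fixed by helper66 in
`Crest/Agent/Helper66/OT/SubSpec.lean`): an a.e. limit from a summable L² rate.
Mathlib only.
-/
import Mathlib

set_option autoImplicit false
open MeasureTheory Filter Topology
open scoped ENNReal NNReal

namespace Crest.Agent.Helper66.OT

/-- **D4 (a.e. limit from a summable L² rate).** -/
theorem exists_ae_limit_of_sq_rate {d : ℕ} (ρ : Measure (EuclideanSpace ℝ (Fin d)))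
    [IsProbabilityMeasure ρ]
    (S : ℕ → EuclideanSpace ℝ (Fin d) → EuclideanSpace ℝ (Fin d)) (hS : ∀ n, Measurable (S n))
    (M : ℝ) (hb : ∀ n, ∀ᵐ x ∂ρ, ‖S n x‖ ≤ M) (a : ℝ) (ha : 0 ≤ a)
    (hrate : ∀ N n m : ℕ, N ≤ n → N ≤ m → ∫ x, ‖S n x - S m x‖ ^ 2 ∂ρ ≤ a * (1 / 4 : ℝ) ^ N) :
    ∃ S' : EuclideanSpace ℝ (Fin d) → EuclideanSpace ℝ (Fin d), Measurable S' ∧
      ∀ᵐ x ∂ρ, Tendsto (fun n => S n x) atTop (𝓝 (S' x)) := by
  have hc : (0 : ℝ) < Real.sqrt a + 1 := by positivity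
  -- summability of the rate
  have hsum : Summable (fun N : ℕ => (Real.sqrt a + 1) * (1 / 2 : ℝ) ^ N) :=
    (summable_geometric_of_lt_one (by norm_num) (by norm_num)).mul_left _
  have hB : ∑' N : ℕ, ENNReal.ofReal ((Real.sqrt a + 1) * (1 / 2 : ℝ) ^ N) ≠ ∞ := by
    rw [← ENNReal.ofReal_tsum_of_nonneg (fun N => by positivity) hsum]
    exact ENNReal.ofReal_ne_top
  -- the Cauchy estimate in `eLpNorm`
  have hcau : ∀ N n m : ℕ, N ≤ n → N ≤ m →
      eLpNorm (S n - S m) 2 ρ < ENNReal.ofReal ((Real.sqrt a + 1) * (1 / 2 : ℝ) ^ N) := by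
    intro N n m hn hm
    have hmeas : AEStronglyMeasurable (S n - S m) ρ :=
      ((hS n).sub (hS m)).aestronglyMeasurable
    have hbd : ∀ᵐ x ∂ρ, ‖(S n - S m) x‖ ≤ M + M := by
      filter_upwards [hb n, hb m] with x h1 h2
      calc ‖(S n - S m) x‖ = ‖S n x - S m x‖ := rfl
        _ ≤ ‖S n x‖ + ‖S m x‖ := norm_sub_le _ _
        _ ≤ M + M := add_le_add h1 h2
    have hmem : MemLp (S n - S m) 2 ρ := MemLp.of_bound hmeas (M + M) hbd
    rw [hmem.eLpNorm_eq_integral_rpow_norm (by norm_num) (by norm_num)]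
    rw [ENNReal.ofReal_lt_ofReal_iff (by positivity)]
    have h2 : ((2 : ℝ≥0∞)).toReal = 2 := by norm_num
    rw [h2]
    have hint : ∫ x, ‖(S n - S m) x‖ ^ (2 : ℝ) ∂ρ = ∫ x, ‖S n x - S m x‖ ^ 2 ∂ρ := by
      refine integral_congr_ae (Eventually.of_forall fun x => ?_)
      simp only [Pi.sub_apply]
      rw [← Real.rpow_natCast]
      norm_num
    rw [hint]
    have hnn : 0 ≤ ∫ x, ‖S n x - S m x‖ ^ 2 ∂ρ :=
      integral_nonneg fun x => by positivity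
    have hle := hrate N n m hn hm
    have hpow : (a * (1 / 4 : ℝ) ^ N) ^ ((2 : ℝ)⁻¹) = Real.sqrt a * (1 / 2 : ℝ) ^ N := by
      have h4 : ((1 / 4 : ℝ)) ^ N = ((1 / 2 : ℝ) ^ N) ^ 2 := by
        rw [← pow_mul, mul_comm, pow_mul]
        norm_num
      rw [inv_eq_one_div, ← Real.sqrt_eq_rpow, Real.sqrt_mul ha, h4,
        Real.sqrt_sq (by positivity)]
    calc (∫ x, ‖S n x - S m x‖ ^ 2 ∂ρ) ^ ((2 : ℝ)⁻¹)
        ≤ (a * (1 / 4 : ℝ) ^ N) ^ ((2 : ℝ)⁻¹) :=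
          Real.rpow_le_rpow hnn hle (by norm_num)
      _ = Real.sqrt a * (1 / 2 : ℝ) ^ N := hpow
      _ < (Real.sqrt a + 1) * (1 / 2 : ℝ) ^ N := by
          have : (0 : ℝ) < (1 / 2 : ℝ) ^ N := by positivity
          nlinarith
  have hae := MeasureTheory.Lp.ae_tendsto_of_cauchy_eLpNorm (μ := ρ) (p := 2)
    (fun n => (hS n).aestronglyMeasurable) (by norm_num) hB hcau
  exact measurable_limit_of_tendsto_metrizable_ae (fun n => (hS n).aemeasurable) hae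

end Crest.Agent.Helper66.OT
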