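/-
helper71 — row 82 (S0109), package (D), leaf D3 (statement fixed by helper66 in
`Crest/Agent/Helper66/OT/SubSpec.lean`): the push-forward passes to an a.e. limit.
Mathlib only.
-/
import Mathlib

set_option autoImplicit false
open MeasureTheory Filter Topology
open scoped ENNReal NNReal BoundedContinuousFunction

namespace Crest.Agent.Helper66.OT

/-- **D3 (push-forward passes to an a.e. limit).** `ρ.map (S n) = μ.map (q n)`, `q n → id`
uniformly on a set `Y` carrying `μ`, `S n → S'` `ρ`-a.e. Then `ρ.map S' = μ`. -/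
theorem map_limit_eq {d : ℕ} (ρ μ : Measure (EuclideanSpace ℝ (Fin d))) [IsFiniteMeasure ρ]
    [IsFiniteMeasure μ] (Y : Set (EuclideanSpace ℝ (Fin d))) (hμY : μ Yᶜ = 0)
    (q : ℕ → EuclideanSpace ℝ (Fin d) → EuclideanSpace ℝ (Fin d)) (hq : ∀ n, Measurable (q n))
    (ε : ℕ → ℝ) (hε : Tendsto ε atTop (𝓝 0)) (hqε : ∀ n, ∀ y ∈ Y, dist (q n y) y ≤ ε n)
    (S : ℕ → EuclideanSpace ℝ (Fin d) → EuclideanSpace ℝ (Fin d)) (hS : ∀ n, Measurable (S n))
    (hpush : ∀ n, ρ.map (S n) = μ.map (q n))
    (S' : EuclideanSpace ℝ (Fin d) → EuclideanSpace ℝ (Fin d)) (hS' : Measurable S')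
    (hlim : ∀ᵐ x ∂ρ, Tendsto (fun n => S n x) atTop (𝓝 (S' x))) :
    ρ.map S' = μ := by
  have : IsFiniteMeasure (ρ.map S') := Measure.isFiniteMeasure_map ρ S'
  refine ext_of_forall_integral_eq_of_IsFiniteMeasure fun f => ?_
  have hfm : Measurable (fun x => f x) := f.continuous.measurable
  have hfs : StronglyMeasurable (fun x => f x) := f.continuous.stronglyMeasurable
  -- left side: `∫ f (S n x) dρ → ∫ f (S' x) dρ`
  have hL : Tendsto (fun n => ∫ x, f (S n x) ∂ρ) atTop (𝓝 (∫ x, f (S' x) ∂ρ)) := by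
    refine tendsto_integral_of_dominated_convergence (fun _ => ‖f‖)
      (fun n => (hfm.comp (hS n)).aestronglyMeasurable) (integrable_const _)
      (fun n => Eventually.of_forall fun x => f.norm_coe_le_norm _) ?_
    filter_upwards [hlim] with x hx
    exact (f.continuous.tendsto _).comp hx
  -- right side: `∫ f (q n y) dμ → ∫ f y dμ`
  have hY : ∀ᵐ y ∂μ, y ∈ Y := by
    rw [ae_iff]
    exact hμY
  have hR : Tendsto (fun n => ∫ y, f (q n y) ∂μ) atTop (𝓝 (∫ y, f y ∂μ)) := by
    refine tendsto_integral_of_dominated_convergence (fun _ => ‖f‖)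
      (fun n => (hfm.comp (hq n)).aestronglyMeasurable) (integrable_const _)
      (fun n => Eventually.of_forall fun y => f.norm_coe_le_norm _) ?_
    filter_upwards [hY] with y hy
    have hqy : Tendsto (fun n => q n y) atTop (𝓝 y) := by
      rw [tendsto_iff_dist_tendsto_zero]
      exact squeeze_zero (fun n => dist_nonneg) (fun n => hqε n y hy) hε
    exact (f.continuous.tendsto _).comp hqy
  -- the two sequences coincide
  have heq : ∀ n, ∫ x, f (S n x) ∂ρ = ∫ y, f (q n y) ∂μ := by
    intro n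
    rw [← integral_map (hS n).aemeasurable hfs.aestronglyMeasurable,
      ← integral_map (hq n).aemeasurable hfs.aestronglyMeasurable, hpush n]
  rw [integral_map hS'.aemeasurable hfs.aestronglyMeasurable]
  refine tendsto_nhds_unique hL ?_
  simpa only [heq] using hR

end Crest.Agent.Helper66.OT
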