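import Mathlib

/-!
# Interpolation inequality for subgradient selections (package (A) of row 82)

For a compact convex body `K ⊆ ℝᵈ`, functions `f g : E → ℝ` and bounded measurable selections
`F G : E → E` that satisfy the subgradient inequality on `K` at almost every point of `K`,
`∫_K ‖F - G‖² ≤ C (∫_K (f - g)²)^(1/3)`.

The proof uses only translations: no slicing, no differentiability.
-/

set_option autoImplicit false
open MeasureTheory Set
open scoped ENNReal NNReal InnerProductSpace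

namespace Crest.Agent.Helper71.OT

variable {d : ℕ}

local notation "E" => EuclideanSpace ℝ (Fin d)

/-- Pointwise step: two-sided difference-quotient bound for the difference of two subgradient
selections in direction `v`. -/
theorem pointwise_dir {K : Set E} {f g : E → ℝ} {F G : E → E} {x v : E}
    (hxp : x + v ∈ K) (hxm : x - v ∈ K) (hx : x ∈ K)
    (sf : ∀ z ∈ K, f x + ⟪F x, z - x⟫_ℝ ≤ f z)
    (sg0 : ∀ z ∈ K, g x + ⟪G x, z - x⟫_ℝ ≤ g z)
    (sgp : ∀ z ∈ K, g (x + v) + ⟪G (x + v), z - (x + v)⟫_ℝ ≤ g z)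
    (sgm : ∀ z ∈ K, g (x - v) + ⟪G (x - v), z - (x - v)⟫_ℝ ≤ g z) :
    |⟪F x - G x, v⟫_ℝ| ≤ |(f (x + v) - g (x + v)) - (f x - g x)|
        + |(f (x - v) - g (x - v)) - (f x - g x)|
        + (⟪G (x + v), v⟫_ℝ - ⟪G (x - v), v⟫_ℝ)
      ∧ 0 ≤ ⟪G (x + v), v⟫_ℝ - ⟪G x, v⟫_ℝ ∧ 0 ≤ ⟪G x, v⟫_ℝ - ⟪G (x - v), v⟫_ℝ := by
  have a := sf (x + v) hxp
  have b := sgp x hx
  have c := sf (x - v) hxm
  have e := sgm x hx
  have m1 := sg0 (x + v) hxp
  have m2 := sg0 (x - v) hxm
  have e1 : x + v - x = v := by abel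
  have e2 : x - (x + v) = -v := by abel
  have e3 : x - v - x = -v := by abel
  have e4 : x - (x - v) = v := by abel
  rw [e1] at a m1
  rw [e2, inner_neg_right] at b
  rw [e3, inner_neg_right] at c m2
  rw [e4] at e
  have hsub : ⟪F x - G x, v⟫_ℝ = ⟪F x, v⟫_ℝ - ⟪G x, v⟫_ℝ := inner_sub_left _ _ _
  rw [hsub]
  refine ⟨?_, by linarith, by linarith⟩
  rw [abs_le]
  constructor
  · have := le_abs_self ((f (x - v) - g (x - v)) - (f x - g x))
    have := abs_nonneg ((f (x + v) - g (x + v)) - (f x - g x))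
    linarith
  · have := le_abs_self ((f (x + v) - g (x + v)) - (f x - g x))
    have := abs_nonneg ((f (x - v) - g (x - v)) - (f x - g x))
    linarith

/-- Translation bound: the integral of a nonnegative function over a translate of a set that
stays inside `K` is at most its integral over `K`. -/
theorem setIntegral_translate_le {φ : E → ℝ} {S K : Set E} (v : E)
    (hS : ∀ x ∈ S, x + v ∈ K) (hφ : ∀ x, 0 ≤ φ x) (hint : IntegrableOn φ K) :
    ∫ x in S, φ (x + v) ≤ ∫ x in K, φ x := by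
  have mp : MeasurePreserving (fun x : E => x + v) volume volume :=
    measurePreserving_add_right volume v
  have me : MeasurableEmbedding (fun x : E => x + v) := measurableEmbedding_addRight v
  have h1 : ∫ x in (fun x : E => x + v) ⁻¹' K, φ (x + v) = ∫ x in K, φ x :=
    mp.setIntegral_preimage_emb me φ K
  rw [← h1]
  apply setIntegral_mono_set
  · exact (mp.integrableOn_comp_preimage me).2 hint
  · exact Filter.Eventually.of_forall (fun x => hφ _)
  · exact LE.le.eventuallyLE (show S ≤ (fun x : E => x + v) ⁻¹' K from hS)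

/-- The points of `K` whose translates by `±v` stay in `K`. -/
def core (K : Set E) (v : E) : Set E :=
  K ∩ ((fun x => x + v) ⁻¹' K) ∩ ((fun x => x - v) ⁻¹' K)

theorem core_subset (K : Set E) (v : E) : core K v ⊆ K := fun _ hx => hx.1.1

theorem isClosed_core {K : Set E} (hK : IsClosed K) (v : E) : IsClosed (core K v) := by
  unfold core
  exact (hK.inter (hK.preimage (by fun_prop))).inter (hK.preimage (by fun_prop))

theorem core_volume_ge {K : Set E} (hKv : Convex ℝ K) {x₀ : E} {ρ r : ℝ} (hρ : 0 < ρ)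
    (hball : Metric.closedBall x₀ ρ ⊆ K) (hr0 : 0 ≤ r) (hr : r ≤ ρ) {e : E} (he : ‖e‖ ≤ 1) :
    ENNReal.ofReal ((1 - r / ρ) ^ d) * volume K ≤ volume (core K (r • e)) := by
  have hc0 : 0 ≤ 1 - r / ρ := by
    have : r / ρ ≤ 1 := (div_le_one hρ).2 hr
    linarith
  have hc1 : 0 ≤ r / ρ := div_nonneg hr0 hρ.le
  have hx₀ : x₀ ∈ K := hball (Metric.mem_closedBall_self hρ.le)
  have hp : x₀ + ρ • e ∈ K := by
    apply hball
    rw [Metric.mem_closedBall, dist_eq_norm, add_sub_cancel_left, norm_smul, Real.norm_eq_abs,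
      abs_of_pos hρ]
    nlinarith
  have hm : x₀ - ρ • e ∈ K := by
    apply hball
    rw [Metric.mem_closedBall, dist_eq_norm, sub_sub_cancel_left, norm_neg, norm_smul,
      Real.norm_eq_abs, abs_of_pos hρ]
    nlinarith
  have hrρ : (r / ρ) * ρ = r := div_mul_cancel₀ r hρ.ne'
  have hsub : AffineMap.homothety x₀ (1 - r / ρ) '' K ⊆ core K (r • e) := by
    rintro _ ⟨k, hk, rfl⟩
    have hy : AffineMap.homothety x₀ (1 - r / ρ) k = (1 - r / ρ) • k + (r / ρ) • x₀ := by
      rw [AffineMap.homothety_apply]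
      simp only [vsub_eq_sub, vadd_eq_add, smul_sub, sub_smul, one_smul]
      abel
    refine ⟨⟨?_, ?_⟩, ?_⟩
    · rw [hy]
      exact hKv hk hx₀ hc0 hc1 (by ring)
    · show AffineMap.homothety x₀ (1 - r / ρ) k + r • e ∈ K
      have : AffineMap.homothety x₀ (1 - r / ρ) k + r • e
          = (1 - r / ρ) • k + (r / ρ) • (x₀ + ρ • e) := by
        rw [hy, smul_add, smul_smul, hrρ]; abel
      rw [this]
      exact hKv hk hp hc0 hc1 (by ring)
    · show AffineMap.homothety x₀ (1 - r / ρ) k - r • e ∈ K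
      have : AffineMap.homothety x₀ (1 - r / ρ) k - r • e
          = (1 - r / ρ) • k + (r / ρ) • (x₀ - ρ • e) := by
        rw [hy, smul_sub, smul_smul, hrρ]; abel
      rw [this]
      exact hKv hk hm hc0 hc1 (by ring)
  calc ENNReal.ofReal ((1 - r / ρ) ^ d) * volume K
      = volume (AffineMap.homothety x₀ (1 - r / ρ) '' K) := by
        rw [Measure.addHaar_image_homothety, finrank_euclideanSpace_fin,
          abs_of_nonneg (pow_nonneg hc0 d)]
    _ ≤ volume (core K (r • e)) := measure_mono hsub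

theorem core_volume_real {K : Set E} (hKc : IsCompact K) (hKv : Convex ℝ K) {x₀ : E} {ρ r : ℝ}
    (hρ : 0 < ρ) (hball : Metric.closedBall x₀ ρ ⊆ K) (hr0 : 0 ≤ r) (hr : r ≤ ρ) {e : E}
    (he : ‖e‖ ≤ 1) :
    (volume K).toReal - (volume (core K (r • e))).toReal ≤ d * (r / ρ) * (volume K).toReal := by
  have h1 := core_volume_ge hKv hρ hball hr0 hr he
  have hc0 : 0 ≤ 1 - r / ρ := by
    have : r / ρ ≤ 1 := (div_le_one hρ).2 hr
    linarith
  have hcfin : volume (core K (r • e)) ≠ ∞ :=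
    ((measure_mono (core_subset K _)).trans_lt hKc.measure_lt_top).ne
  have h2 : (1 - r / ρ) ^ d * (volume K).toReal ≤ (volume (core K (r • e))).toReal := by
    have := ENNReal.toReal_mono hcfin h1
    rwa [ENNReal.toReal_mul, ENNReal.toReal_ofReal (pow_nonneg hc0 d)] at this
  have h3 : 1 + (d : ℝ) * (-(r / ρ)) ≤ (1 + -(r / ρ)) ^ d :=
    one_add_mul_le_pow (by linarith) d
  have h4 : (1 + -(r / ρ)) = 1 - r / ρ := by ring
  rw [h4] at h3
  have h5 : (0:ℝ) ≤ (volume K).toReal := ENNReal.toReal_nonneg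
  nlinarith

theorem integrableOn_of_bdd {φ : E → ℝ} (hφ : Measurable φ) {B : ℝ} (hB : ∀ x, |φ x| ≤ B)
    {S : Set E} (hS : volume S ≠ ∞) : IntegrableOn φ S :=
  Measure.integrableOn_of_bounded hS hφ.aestronglyMeasurable
    (Filter.Eventually.of_forall (fun x => by simpa using hB x))

/-- Real-number core of the pointwise estimate. -/
theorem pointwise_alg {r M A hp hm h0 mp mm : ℝ} (hr : 0 < r) (hA : |A| ≤ 2 * M)
    (k1 : |r * A| ≤ |hp - h0| + |hm - h0| + (r * mp - r * mm))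
    (k2 : 0 ≤ r * mp - r * mm) :
    r ^ 2 / 2 * A ^ 2 + 4 * M ^ 2 * r ^ 2 ≤ 2 * hp ^ 2 + 2 * hm ^ 2 + 4 * h0 ^ 2
        + 2 * M * r ^ 2 * (M + mp) + 2 * M * r ^ 2 * (M - mm) := by
  set α := |A| with hα
  set δp := |hp - h0| with hδp
  set δm := |hm - h0| with hδm
  have hα0 : 0 ≤ α := abs_nonneg _
  have hδp0 : 0 ≤ δp := abs_nonneg _
  have hδm0 : 0 ≤ δm := abs_nonneg _
  have k1' : r * α ≤ δp + δm + (r * mp - r * mm) := by
    rw [abs_mul, abs_of_pos hr] at k1; exact k1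
  have hαsq : α ^ 2 = A ^ 2 := sq_abs A
  have hδpsq : δp ^ 2 = (hp - h0) ^ 2 := sq_abs _
  have hδmsq : δm ^ 2 = (hm - h0) ^ 2 := sq_abs _
  -- multiply k1' by r * α
  have s1 : (r * α) * (r * α) ≤ (r * α) * (δp + δm + (r * mp - r * mm)) :=
    mul_le_mul_of_nonneg_left k1' (mul_nonneg hr.le hα0)
  have s2 : (r * α) * (r * mp - r * mm) ≤ (r * (2 * M)) * (r * mp - r * mm) :=
    mul_le_mul_of_nonneg_right (mul_le_mul_of_nonneg_left hA hr.le) k2
  have s3 : (r * α) * δp ≤ (r * α) ^ 2 / 4 + δp ^ 2 := by nlinarith [sq_nonneg (r * α / 2 - δp)]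
  have s4 : (r * α) * δm ≤ (r * α) ^ 2 / 4 + δm ^ 2 := by nlinarith [sq_nonneg (r * α / 2 - δm)]
  have s5 : (hp - h0) ^ 2 ≤ 2 * hp ^ 2 + 2 * h0 ^ 2 := by nlinarith [sq_nonneg (hp + h0)]
  have s6 : (hm - h0) ^ 2 ≤ 2 * hm ^ 2 + 2 * h0 ^ 2 := by nlinarith [sq_nonneg (hm + h0)]
  have s7 : (r * α) ^ 2 = r ^ 2 * A ^ 2 := by rw [mul_pow, hαsq]
  nlinarith

theorem dir_bound {K : Set E} (hKc : IsCompact K) (hKv : Convex ℝ K) {x₀ : E} {ρ r : ℝ}
    (hρ : 0 < ρ) (hball : Metric.closedBall x₀ ρ ⊆ K) (hr0 : 0 < r) (hr : r ≤ ρ)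
    {e : E} (he : ‖e‖ ≤ 1) {M : ℝ} (hM : 0 ≤ M)
    {f g : E → ℝ} {F G : E → E} (hf : ContinuousOn f K) (hg : ContinuousOn g K)
    (hF : Measurable F) (hG : Measurable G) (bF : ∀ x, ‖F x‖ ≤ M) (bG : ∀ x, ‖G x‖ ≤ M)
    (sf : ∀ᵐ x ∂(volume : Measure E), x ∈ K → ∀ z ∈ K, f x + ⟪F x, z - x⟫_ℝ ≤ f z)
    (sg : ∀ᵐ x ∂(volume : Measure E), x ∈ K → ∀ z ∈ K, g x + ⟪G x, z - x⟫_ℝ ≤ g z) :
    (∫ x in K, ⟪F x - G x, e⟫_ℝ ^ 2) ≤ 16 / r ^ 2 * (∫ x in K, (f x - g x) ^ 2)
      + 12 * M ^ 2 * (d * (r / ρ) * (volume K).toReal) := by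
  set v : E := r • e with hv
  set Kr : Set E := core K v with hKr
  set h : E → ℝ := fun x => f x - g x with hh
  set a : E → ℝ := fun x => ⟪F x - G x, e⟫_ℝ with ha
  set m : E → ℝ := fun x => ⟪G x, e⟫_ℝ with hm
  have hKmeas : MeasurableSet K := hKc.isClosed.measurableSet
  have hKrcl : IsClosed Kr := isClosed_core hKc.isClosed v
  have hKrmeas : MeasurableSet Kr := hKrcl.measurableSet
  have hKrc : IsCompact Kr := hKc.of_isClosed_subset hKrcl (core_subset K v)
  have hKfin : volume K ≠ ∞ := hKc.measure_lt_top.ne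
  have hKrfin : volume Kr ≠ ∞ := hKrc.measure_lt_top.ne
  have hcont : ContinuousOn h K := hf.sub hg
  have hameas : Measurable a := (hF.sub hG).inner measurable_const
  have hmmeas : Measurable m := hG.inner measurable_const
  have habd : ∀ x, |a x| ≤ 2 * M := by
    intro x
    calc |a x| ≤ ‖F x - G x‖ * ‖e‖ := abs_real_inner_le_norm _ _
      _ ≤ (‖F x‖ + ‖G x‖) * 1 :=
        mul_le_mul (norm_sub_le _ _) he (norm_nonneg _) (by positivity)
      _ ≤ 2 * M := by linarith [bF x, bG x]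
  have hmbd : ∀ x, |m x| ≤ M := by
    intro x
    calc |m x| ≤ ‖G x‖ * ‖e‖ := abs_real_inner_le_norm _ _
      _ ≤ M * 1 := mul_le_mul (bG x) he (norm_nonneg _) hM
      _ = M := mul_one M
  -- almost everywhere pointwise inequality
  have sgP : ∀ᵐ x ∂(volume : Measure E), x + v ∈ K →
      ∀ z ∈ K, g (x + v) + ⟪G (x + v), z - (x + v)⟫_ℝ ≤ g z :=
    (measurePreserving_add_right volume v).quasiMeasurePreserving.ae sg
  have sgM : ∀ᵐ x ∂(volume : Measure E), x - v ∈ K →
      ∀ z ∈ K, g (x - v) + ⟪G (x - v), z - (x - v)⟫_ℝ ≤ g z :=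
    (measurePreserving_sub_right volume v).quasiMeasurePreserving.ae sg
  have PW : ∀ᵐ x ∂(volume : Measure E), x ∈ Kr →
      r ^ 2 / 2 * a x ^ 2 + 4 * M ^ 2 * r ^ 2
        ≤ 2 * h (x + v) ^ 2 + 2 * h (x - v) ^ 2 + 4 * h x ^ 2
          + 2 * M * r ^ 2 * (M + m (x + v)) + 2 * M * r ^ 2 * (M - m (x - v)) := by
    filter_upwards [sf, sg, sgP, sgM] with x h1 h2 h3 h4 hx
    obtain ⟨⟨hxK, hxp⟩, hxm⟩ := hx
    obtain ⟨k1, k2, k3⟩ := pointwise_dir hxp hxm hxK (h1 hxK) (h2 hxK) (h3 hxp) (h4 hxm)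
    have i1 : ⟪F x - G x, v⟫_ℝ = r * a x := real_inner_smul_right _ _ _
    have i2 : ⟪G (x + v), v⟫_ℝ = r * m (x + v) := real_inner_smul_right _ _ _
    have i3 : ⟪G (x - v), v⟫_ℝ = r * m (x - v) := real_inner_smul_right _ _ _
    rw [i1, i2, i3] at k1
    rw [i2] at k2
    rw [i3] at k3
    exact pointwise_alg hr0 (habd x) k1 (by linarith)
  -- integrability facts
  have ia2K : IntegrableOn (fun x => a x ^ 2) K :=
    integrableOn_of_bdd (hameas.pow_const 2) (B := (2 * M) ^ 2)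
      (fun x => by rw [abs_pow]; exact pow_le_pow_left₀ (abs_nonneg _) (habd x) 2) hKfin
  have ia2Kr : IntegrableOn (fun x => a x ^ 2) Kr := ia2K.mono_set (core_subset K v)
  have ih2K : IntegrableOn (fun x => h x ^ 2) K :=
    (hcont.pow 2).integrableOn_compact hKc
  have ihp : IntegrableOn (fun x => h (x + v) ^ 2) Kr :=
    ((hcont.comp (f := fun x : E => x + v) (by fun_prop) (fun x hx => hx.1.2)).pow
      2).integrableOn_compact hKrc
  have ihm : IntegrableOn (fun x => h (x - v) ^ 2) Kr :=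
    ((hcont.comp (f := fun x : E => x - v) (by fun_prop) (fun x hx => hx.2)).pow
      2).integrableOn_compact hKrc
  have ih0 : IntegrableOn (fun x => h x ^ 2) Kr := ih2K.mono_set (core_subset K v)
  have iMp : IntegrableOn (fun x => M + m x) K :=
    integrableOn_of_bdd (φ := fun x => M + m x) (measurable_const.add hmmeas) (B := 2 * M)
      (fun x => by
        have := abs_le.1 (hmbd x)
        rw [abs_le]; constructor <;> linarith) hKfin
  have iMm : IntegrableOn (fun x => M - m x) K :=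
    integrableOn_of_bdd (φ := fun x => M - m x) (measurable_const.sub hmmeas) (B := 2 * M)
      (fun x => by
        have := abs_le.1 (hmbd x)
        rw [abs_le]; constructor <;> linarith) hKfin
  have iJp : IntegrableOn (fun x => M + m (x + v)) Kr :=
    integrableOn_of_bdd (φ := fun x => M + m (x + v))
      (measurable_const.add (hmmeas.comp (measurable_add_const v))) (B := 2 * M)
      (fun x => by
        have := abs_le.1 (hmbd (x + v))
        rw [abs_le]; constructor <;> linarith) hKrfin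
  have iJm : IntegrableOn (fun x => M - m (x - v)) Kr :=
    integrableOn_of_bdd (φ := fun x => M - m (x - v))
      (measurable_const.sub (hmmeas.comp (measurable_sub_const v))) (B := 2 * M)
      (fun x => by
        have := abs_le.1 (hmbd (x - v))
        rw [abs_le]; constructor <;> linarith) hKrfin
  -- names for the integrals
  set Ia := ∫ x in Kr, a x ^ 2 with hIa
  set H := ∫ x in K, h x ^ 2 with hH
  -- integrate the pointwise inequality over Kr
  have ic4 : IntegrableOn (fun _ : E => 4 * M ^ 2 * r ^ 2) Kr := integrableOn_const hKrfin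
  have t1 : IntegrableOn (fun x => r ^ 2 / 2 * a x ^ 2) Kr := ia2Kr.const_mul _
  have t2 : IntegrableOn (fun x => 2 * h (x + v) ^ 2) Kr := ihp.const_mul 2
  have t3 : IntegrableOn (fun x => 2 * h (x - v) ^ 2) Kr := ihm.const_mul 2
  have t4 : IntegrableOn (fun x => 4 * h x ^ 2) Kr := ih0.const_mul 4
  have t5 : IntegrableOn (fun x => 2 * M * r ^ 2 * (M + m (x + v))) Kr := iJp.const_mul _
  have t6 : IntegrableOn (fun x => 2 * M * r ^ 2 * (M - m (x - v))) Kr := iJm.const_mul _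
  have t23 : IntegrableOn (fun x => 2 * h (x + v) ^ 2 + 2 * h (x - v) ^ 2) Kr := t2.add t3
  have t234 : IntegrableOn (fun x => 2 * h (x + v) ^ 2 + 2 * h (x - v) ^ 2 + 4 * h x ^ 2) Kr :=
    t23.add t4
  have t2345 : IntegrableOn (fun x => 2 * h (x + v) ^ 2 + 2 * h (x - v) ^ 2 + 4 * h x ^ 2
      + 2 * M * r ^ 2 * (M + m (x + v))) Kr := t234.add t5
  have t23456 : IntegrableOn (fun x => 2 * h (x + v) ^ 2 + 2 * h (x - v) ^ 2 + 4 * h x ^ 2
      + 2 * M * r ^ 2 * (M + m (x + v)) + 2 * M * r ^ 2 * (M - m (x - v))) Kr := t2345.add t6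
  have t1c : IntegrableOn (fun x => r ^ 2 / 2 * a x ^ 2 + 4 * M ^ 2 * r ^ 2) Kr := t1.add ic4
  have INT : r ^ 2 / 2 * Ia + 4 * M ^ 2 * r ^ 2 * (volume Kr).toReal
      ≤ 2 * (∫ x in Kr, h (x + v) ^ 2) + 2 * (∫ x in Kr, h (x - v) ^ 2)
        + 4 * (∫ x in Kr, h x ^ 2) + 2 * M * r ^ 2 * (∫ x in Kr, (M + m (x + v)))
        + 2 * M * r ^ 2 * (∫ x in Kr, (M - m (x - v))) := by
    have L : ∫ x in Kr, (r ^ 2 / 2 * a x ^ 2 + 4 * M ^ 2 * r ^ 2)
        = r ^ 2 / 2 * Ia + 4 * M ^ 2 * r ^ 2 * (volume Kr).toReal := by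
      rw [integral_add t1 ic4, integral_const_mul, setIntegral_const, smul_eq_mul, Measure.real,
        mul_comm (volume Kr).toReal]
    have R : ∫ x in Kr, (2 * h (x + v) ^ 2 + 2 * h (x - v) ^ 2 + 4 * h x ^ 2
          + 2 * M * r ^ 2 * (M + m (x + v)) + 2 * M * r ^ 2 * (M - m (x - v)))
        = 2 * (∫ x in Kr, h (x + v) ^ 2) + 2 * (∫ x in Kr, h (x - v) ^ 2)
        + 4 * (∫ x in Kr, h x ^ 2) + 2 * M * r ^ 2 * (∫ x in Kr, (M + m (x + v)))
        + 2 * M * r ^ 2 * (∫ x in Kr, (M - m (x - v))) := by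
      rw [integral_add t2345 t6, integral_add t234 t5, integral_add t23 t4, integral_add t2 t3,
        integral_const_mul, integral_const_mul, integral_const_mul, integral_const_mul,
        integral_const_mul]
    rw [← L, ← R]
    exact setIntegral_mono_on_ae t1c t23456 hKrmeas PW
  -- translation bounds
  have hsq0 : ∀ x, 0 ≤ h x ^ 2 := fun x => sq_nonneg _
  have B1 : ∫ x in Kr, h (x + v) ^ 2 ≤ H :=
    setIntegral_translate_le (φ := fun x => h x ^ 2) v (fun x hx => hx.1.2) hsq0 ih2K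
  have B2 : ∫ x in Kr, h (x - v) ^ 2 ≤ H := by
    have := setIntegral_translate_le (φ := fun x => h x ^ 2) (S := Kr) (-v)
      (fun x hx => by rw [← sub_eq_add_neg]; exact hx.2) hsq0 ih2K
    simpa only [← sub_eq_add_neg] using this
  have B3 : ∫ x in Kr, h x ^ 2 ≤ H :=
    setIntegral_mono_set ih2K (Filter.Eventually.of_forall hsq0)
      (LE.le.eventuallyLE (show Kr ≤ K from core_subset K v))
  have B4 : ∫ x in Kr, (M + m (x + v)) ≤ ∫ x in K, (M + m x) :=
    setIntegral_translate_le (φ := fun x => M + m x) v (fun x hx => hx.1.2)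
      (fun x => by have := abs_le.1 (hmbd x); linarith) iMp
  have B5 : ∫ x in Kr, (M - m (x - v)) ≤ ∫ x in K, (M - m x) := by
    have := setIntegral_translate_le (φ := fun x => M - m x) (S := Kr) (-v)
      (fun x hx => by rw [← sub_eq_add_neg]; exact hx.2)
      (fun x => by have := abs_le.1 (hmbd x); linarith) iMm
    simpa only [← sub_eq_add_neg] using this
  have icM : IntegrableOn (fun _ : E => 2 * M) K := integrableOn_const hKfin
  have B45 : (∫ x in K, (M + m x)) + ∫ x in K, (M - m x) = 2 * M * (volume K).toReal := by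
    rw [← integral_add iMp iMm]
    have : (fun x => M + m x + (M - m x)) = fun _ => 2 * M := by
      funext x; ring
    rw [this, setIntegral_const, smul_eq_mul, Measure.real, mul_comm]
  -- the complement
  have B6 : (∫ x in K, a x ^ 2) ≤ Ia + 4 * M ^ 2 * ((volume K).toReal - (volume Kr).toReal) := by
    have icK : IntegrableOn (fun _ : E => (2 * M) ^ 2) K := integrableOn_const hKfin
    have icKr : IntegrableOn (fun _ : E => (2 * M) ^ 2) Kr := integrableOn_const hKrfin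
    have i1 : IntegrableOn (fun x => (2 * M) ^ 2 - a x ^ 2) K := icK.sub ia2K
    have mono : ∫ x in Kr, ((2 * M) ^ 2 - a x ^ 2) ≤ ∫ x in K, ((2 * M) ^ 2 - a x ^ 2) :=
      setIntegral_mono_set i1
        (Filter.Eventually.of_forall (fun x => by
          have := habd x
          have h2 : a x ^ 2 ≤ (2 * M) ^ 2 := by
            rw [← sq_abs (a x)]; exact pow_le_pow_left₀ (abs_nonneg _) this 2
          show (0:ℝ) ≤ (2 * M) ^ 2 - a x ^ 2
          linarith))
        (LE.le.eventuallyLE (show Kr ≤ K from core_subset K v))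
    rw [integral_sub icKr ia2Kr, integral_sub icK ia2K, setIntegral_const, setIntegral_const,
      smul_eq_mul, smul_eq_mul, Measure.real, Measure.real] at mono
    linarith
  have V : (volume K).toReal - (volume Kr).toReal ≤ d * (r / ρ) * (volume K).toReal :=
    core_volume_real hKc hKv hρ hball hr0.le hr he
  have hMK : 0 ≤ M * (volume K).toReal := mul_nonneg hM ENNReal.toReal_nonneg
  -- combine
  have hr2 : 0 < r ^ 2 := by positivity
  have C1 : r ^ 2 / 2 * Ia ≤ 8 * H + 4 * M ^ 2 * r ^ 2 * ((volume K).toReal - (volume Kr).toReal) := by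
    have hMr : 0 ≤ 2 * M * r ^ 2 := by positivity
    have p4 := mul_le_mul_of_nonneg_left B4 hMr
    have p5 := mul_le_mul_of_nonneg_left B5 hMr
    have e45 : 2 * M * r ^ 2 * (∫ x in K, (M + m x)) + 2 * M * r ^ 2 * (∫ x in K, (M - m x))
        = 2 * M * r ^ 2 * (2 * M * (volume K).toReal) := by rw [← B45]; ring
    linarith
  have C2 : Ia ≤ 16 / r ^ 2 * H + 8 * M ^ 2 * ((volume K).toReal - (volume Kr).toReal) := by
    have e1 : Ia = (r ^ 2 / 2 * Ia) * (2 / r ^ 2) := by field_simp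
    have h2 : (r ^ 2 / 2 * Ia) * (2 / r ^ 2)
        ≤ (8 * H + 4 * M ^ 2 * r ^ 2 * ((volume K).toReal - (volume Kr).toReal)) * (2 / r ^ 2) :=
      mul_le_mul_of_nonneg_right C1 (by positivity)
    have h3 : (8 * H + 4 * M ^ 2 * r ^ 2 * ((volume K).toReal - (volume Kr).toReal)) * (2 / r ^ 2)
        = 16 / r ^ 2 * H + 8 * M ^ 2 * ((volume K).toReal - (volume Kr).toReal) := by
      field_simp; ring
    linarith
  have hM2 : 0 ≤ 12 * M ^ 2 := by positivity
  have V' := mul_le_mul_of_nonneg_left V hM2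
  show (∫ x in K, a x ^ 2) ≤ 16 / r ^ 2 * H + 12 * M ^ 2 * (d * (r / ρ) * (volume K).toReal)
  linarith

/-- Clipping a selection to the ball of radius `M`. -/
noncomputable def clip (M : ℝ) (F : E → E) : E → E := fun x => if ‖F x‖ ≤ M then F x else 0

theorem clip_measurable {M : ℝ} {F : E → E} (hF : Measurable F) : Measurable (clip M F) :=
  Measurable.ite (measurableSet_le hF.norm measurable_const) hF measurable_const

theorem clip_norm_le {M : ℝ} (hM : 0 ≤ M) (F : E → E) (x : E) : ‖clip M F x‖ ≤ M := by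
  unfold clip
  split_ifs with h
  · exact h
  · simpa using hM

theorem clip_eq {M : ℝ} {F : E → E} {x : E} (h : ‖F x‖ ≤ M) : clip M F x = F x := if_pos h

/-- One-direction estimate with the optimised radius. -/
theorem dir_bound_opt {K : Set E} (hKc : IsCompact K) (hKv : Convex ℝ K) {x₀ : E} {ρ : ℝ}
    (hρ : 0 < ρ) (hball : Metric.closedBall x₀ ρ ⊆ K)
    {e : E} (he : ‖e‖ ≤ 1) {M : ℝ} (hM : 0 ≤ M)
    {f g : E → ℝ} {F G : E → E} (hf : ContinuousOn f K) (hg : ContinuousOn g K)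
    (hF : Measurable F) (hG : Measurable G) (bF : ∀ x, ‖F x‖ ≤ M) (bG : ∀ x, ‖G x‖ ≤ M)
    (sf : ∀ᵐ x ∂(volume : Measure E), x ∈ K → ∀ z ∈ K, f x + ⟪F x, z - x⟫_ℝ ≤ f z)
    (sg : ∀ᵐ x ∂(volume : Measure E), x ∈ K → ∀ z ∈ K, g x + ⟪G x, z - x⟫_ℝ ≤ g z) :
    (∫ x in K, ⟪F x - G x, e⟫_ℝ ^ 2)
      ≤ (16 + 12 * M ^ 2 * (d * (volume K).toReal / ρ) + 4 * M ^ 2 * (volume K).toReal / ρ)
        * (∫ x in K, (f x - g x) ^ 2) ^ (1 / 3 : ℝ) := by
  set V := (volume K).toReal with hV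
  set H := ∫ x in K, (f x - g x) ^ 2 with hH
  set I := ∫ x in K, ⟪F x - G x, e⟫_ℝ ^ 2 with hI
  have hV0 : 0 ≤ V := ENNReal.toReal_nonneg
  have hH0 : 0 ≤ H := integral_nonneg (fun x => sq_nonneg _)
  set t := H ^ (1 / 3 : ℝ) with ht
  have ht0 : 0 ≤ t := Real.rpow_nonneg hH0 _
  have ht3 : t ^ 3 = H := by
    rw [ht, ← Real.rpow_natCast, ← Real.rpow_mul hH0]
    norm_num
  have main : ∀ r : ℝ, 0 < r → r ≤ ρ → I ≤ 16 / r ^ 2 * H + 12 * M ^ 2 * (d * (r / ρ) * V) :=
    fun r hr0 hr => dir_bound hKc hKv hρ hball hr0 hr he hM hf hg hF hG bF bG sf sg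
  have hc : 0 ≤ 12 * M ^ 2 * (d * V / ρ) := by positivity
  have hc' : 0 ≤ 4 * M ^ 2 * V / ρ := by positivity
  rcases lt_trichotomy t 0 with h | h | h
  · exact absurd ht0 (not_le.2 h)
  · -- H = 0
    have hH' : H = 0 := by rw [← ht3, h]; norm_num
    rw [h, mul_zero]
    apply le_of_forall_pos_le_add
    intro ε hε
    set c := 12 * M ^ 2 * (d * V / ρ) with hcdef
    have hr0 : 0 < min ρ (ε / (c + 1)) := lt_min hρ (by positivity)
    have := main _ hr0 (min_le_left _ _)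
    rw [hH', mul_zero, zero_add] at this
    have h2 : 12 * M ^ 2 * (d * (min ρ (ε / (c + 1)) / ρ) * V) = c * min ρ (ε / (c + 1)) := by
      rw [hcdef]; field_simp
    rw [h2] at this
    have h3 : c * min ρ (ε / (c + 1)) ≤ c * (ε / (c + 1)) :=
      mul_le_mul_of_nonneg_left (min_le_right _ _) hc
    have h4 : c * (ε / (c + 1)) ≤ ε := by
      rw [mul_div_assoc', div_le_iff₀ (by positivity)]
      nlinarith
    linarith
  · rcases le_or_gt t ρ with htρ | htρ
    · have := main t h htρ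
      have e1 : 16 / t ^ 2 * H = 16 * t := by
        rw [← ht3]; field_simp
      have e2 : 12 * M ^ 2 * (d * (t / ρ) * V) = 12 * M ^ 2 * (d * V / ρ) * t := by
        field_simp
      rw [e1, e2] at this
      nlinarith
    · -- trivial bound
      have hmeas : Measurable (fun x => ⟪F x - G x, e⟫_ℝ ^ 2) :=
        ((hF.sub hG).inner measurable_const).pow_const 2
      have hbd : ∀ x, ⟪F x - G x, e⟫_ℝ ^ 2 ≤ (2 * M) ^ 2 := by
        intro x
        have : |⟪F x - G x, e⟫_ℝ| ≤ 2 * M := by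
          calc |⟪F x - G x, e⟫_ℝ| ≤ ‖F x - G x‖ * ‖e‖ := abs_real_inner_le_norm _ _
            _ ≤ (‖F x‖ + ‖G x‖) * 1 :=
              mul_le_mul (norm_sub_le _ _) he (norm_nonneg _) (by positivity)
            _ ≤ 2 * M := by linarith [bF x, bG x]
        rw [← sq_abs]
        exact pow_le_pow_left₀ (abs_nonneg _) this 2
      have hKfin : volume K ≠ ∞ := hKc.measure_lt_top.ne
      have i1 : IntegrableOn (fun x => ⟪F x - G x, e⟫_ℝ ^ 2) K :=
        integrableOn_of_bdd hmeas (B := (2 * M) ^ 2)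
          (fun x => by rw [abs_of_nonneg (sq_nonneg _)]; exact hbd x) hKfin
      have i2 : IntegrableOn (fun _ : E => (2 * M) ^ 2) K := integrableOn_const hKfin
      have hIle : I ≤ (2 * M) ^ 2 * V := by
        have := setIntegral_mono_on i1 i2 hKc.isClosed.measurableSet (fun x _ => hbd x)
        rwa [setIntegral_const, smul_eq_mul, Measure.real, mul_comm] at this
      have h5 : (2 * M) ^ 2 * V ≤ 4 * M ^ 2 * V / ρ * t := by
        rw [div_mul_eq_mul_div, le_div_iff₀ hρ]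
        have : 0 ≤ 4 * M ^ 2 * V := by positivity
        nlinarith
      have h6 : 0 ≤ (16 + 12 * M ^ 2 * (d * V / ρ)) * t := by positivity
      nlinarith

/-- **Package (A)**: interpolation inequality for subgradient selections on a convex body. -/
theorem subgradient_interpolation (K : Set E) (hKc : IsCompact K) (hKv : Convex ℝ K)
    (hKi : (interior K).Nonempty) (M : ℝ) (hM : 0 ≤ M) :
    ∃ C : ℝ, 0 ≤ C ∧ ∀ (f g : E → ℝ) (F G : E → E), ContinuousOn f K → ContinuousOn g K →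
      Measurable F → Measurable G →
      (∀ᵐ x ∂(volume.restrict K), ‖F x‖ ≤ M) → (∀ᵐ x ∂(volume.restrict K), ‖G x‖ ≤ M) →
      (∀ᵐ x ∂(volume.restrict K), ∀ z ∈ K, f x + ⟪F x, z - x⟫_ℝ ≤ f z) →
      (∀ᵐ x ∂(volume.restrict K), ∀ z ∈ K, g x + ⟪G x, z - x⟫_ℝ ≤ g z) →
      (∫ x in K, ‖F x - G x‖ ^ 2) ≤ C * (∫ x in K, (f x - g x) ^ 2) ^ (1 / 3 : ℝ) := by
  obtain ⟨x₀, hx₀⟩ := hKi
  obtain ⟨ε, hε, hεK⟩ := Metric.isOpen_iff.1 isOpen_interior x₀ hx₀
  have hρ : 0 < ε / 2 := by positivity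
  have hball : Metric.closedBall x₀ (ε / 2) ⊆ K :=
    (Metric.closedBall_subset_ball (by linarith)).trans (hεK.trans interior_subset)
  have hV0 : 0 ≤ (volume K).toReal := ENNReal.toReal_nonneg
  set C₀ := 16 + 12 * M ^ 2 * (d * (volume K).toReal / (ε / 2))
    + 4 * M ^ 2 * (volume K).toReal / (ε / 2) with hC₀
  have hC₀0 : 0 ≤ C₀ := by positivity
  refine ⟨d * C₀, by positivity, ?_⟩
  intro f g F G hf hg hF hG bF bG sf sg
  have hKmeas : MeasurableSet K := hKc.isClosed.measurableSet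
  have hKfin : volume K ≠ ∞ := hKc.measure_lt_top.ne
  set F' := clip M F with hF'
  set G' := clip M G with hG'
  have eF : ∀ᵐ x ∂(volume.restrict K), F' x = F x := bF.mono (fun x hx => clip_eq hx)
  have eG : ∀ᵐ x ∂(volume.restrict K), G' x = G x := bG.mono (fun x hx => clip_eq hx)
  have sf' : ∀ᵐ x ∂(volume : Measure E), x ∈ K → ∀ z ∈ K, f x + ⟪F' x, z - x⟫_ℝ ≤ f z := by
    rw [← ae_restrict_iff' hKmeas]
    filter_upwards [sf, eF] with x h1 h2
    rw [h2]; exact h1
  have sg' : ∀ᵐ x ∂(volume : Measure E), x ∈ K → ∀ z ∈ K, g x + ⟪G' x, z - x⟫_ℝ ≤ g z := by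
    rw [← ae_restrict_iff' hKmeas]
    filter_upwards [sg, eG] with x h1 h2
    rw [h2]; exact h1
  have hF'm : Measurable F' := clip_measurable hF
  have hG'm : Measurable G' := clip_measurable hG
  have bF' : ∀ x, ‖F' x‖ ≤ M := clip_norm_le hM F
  have bG' : ∀ x, ‖G' x‖ ≤ M := clip_norm_le hM G
  -- replace F, G by the clipped versions
  have e0 : (∫ x in K, ‖F x - G x‖ ^ 2) = ∫ x in K, ‖F' x - G' x‖ ^ 2 := by
    apply integral_congr_ae
    filter_upwards [eF, eG] with x h1 h2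
    rw [h1, h2]
  rw [e0]
  -- coordinates
  have hdir : ∀ i : Fin d, (∫ x in K, ⟪F' x - G' x, EuclideanSpace.single i (1:ℝ)⟫_ℝ ^ 2)
      ≤ C₀ * (∫ x in K, (f x - g x) ^ 2) ^ (1 / 3 : ℝ) := fun i =>
    dir_bound_opt hKc hKv hρ hball (by simp) hM hf hg hF'm hG'm bF' bG' sf' sg'
  have e1 : ∀ x, ‖F' x - G' x‖ ^ 2
      = ∑ i : Fin d, ⟪F' x - G' x, EuclideanSpace.single i (1:ℝ)⟫_ℝ ^ 2 := by
    intro x
    rw [EuclideanSpace.real_norm_sq_eq]
    apply Finset.sum_congr rfl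
    intro i _
    simp [EuclideanSpace.inner_single_right]
  have e2 : (∫ x in K, ‖F' x - G' x‖ ^ 2)
      = ∑ i : Fin d, ∫ x in K, ⟪F' x - G' x, EuclideanSpace.single i (1:ℝ)⟫_ℝ ^ 2 := by
    simp_rw [e1]
    apply integral_finsetSum
    intro i _
    have hmeas : Measurable (fun x => ⟪F' x - G' x, EuclideanSpace.single i (1:ℝ)⟫_ℝ ^ 2) :=
      ((hF'm.sub hG'm).inner measurable_const).pow_const 2
    refine integrableOn_of_bdd hmeas (B := (2 * M) ^ 2) (fun x => ?_) hKfin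
    rw [abs_of_nonneg (sq_nonneg _), ← sq_abs]
    apply pow_le_pow_left₀ (abs_nonneg _)
    calc |⟪F' x - G' x, EuclideanSpace.single i (1:ℝ)⟫_ℝ|
        ≤ ‖F' x - G' x‖ * ‖EuclideanSpace.single i (1:ℝ)‖ := abs_real_inner_le_norm _ _
      _ ≤ (‖F' x‖ + ‖G' x‖) * 1 :=
        mul_le_mul (norm_sub_le _ _) (by simp) (norm_nonneg _) (by positivity)
      _ ≤ 2 * M := by linarith [bF' x, bG' x]
  rw [e2]
  calc ∑ i : Fin d, ∫ x in K, ⟪F' x - G' x, EuclideanSpace.single i (1:ℝ)⟫_ℝ ^ 2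
      ≤ ∑ _i : Fin d, C₀ * (∫ x in K, (f x - g x) ^ 2) ^ (1 / 3 : ℝ) :=
        Finset.sum_le_sum (fun i _ => hdir i)
    _ = d * C₀ * (∫ x in K, (f x - g x) ^ 2) ^ (1 / 3 : ℝ) := by
        rw [Finset.sum_const, Finset.card_univ, Fintype.card_fin, nsmul_eq_mul, mul_assoc]

end Crest.Agent.Helper71.OT
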